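import Vale.Agent.P198.C.TD

/-! # P198 block C: a uniform lower bound for the densities -/

namespace Vale.Agent.P198
open Set Metric Filter Topology MeasureTheory
open InnerProductSpace Laplacian
variable {G Z : Type} [Group G] [MetricSpace Z] [CompactSpace Z] [MulAction G Z]
  [ContinuousConstSMul G Z] [MeasurableSpace Z] [BorelSpace Z]
  {D : DF G Z} {O : Set Z} {u v : C(Z, ℝ)}

theorem grad2_CCmin {ψ : ℂ → ℝ} (hψ : ContDiff ℝ 2 ψ) :
    Continuous (grad2 ψ) ∧ tsupport (grad2 ψ) ⊆ tsupport ψ ∧ ∀ z, 0 ≤ grad2 ψ z := by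
  have h := hψ.continuous_fderiv (by norm_num)
  refine ⟨((h.clm_apply continuous_const).pow 2).add ((h.clm_apply continuous_const).pow 2),
    closure_minimal (fun z hz => ?_) (isClosed_tsupport ψ),
    fun z => add_nonneg (sq_nonneg _) (sq_nonneg _)⟩
  by_contra hn
  have : fderiv ℝ ψ z = 0 := image_eq_zero_of_notMem_tsupport fun h' =>
    hn (tsupport_fderiv_subset ℝ h')
  exact hz (by simp [grad2, this])

/-- A short condenser at `p` whose plates are separated by the half plane cutoff. -/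
theorem cfg_CCmin (X : GP G Z) (H : D.HM O u v) {p ζ : Z} {t : ℝ} (ht : 0 < t)
    (hζ : t ≤ ‖cx u v ζ - cx u v p‖) (hm : ∀ ξ, dist ξ p < dist ζ p → ‖cx u v ξ - cx u v p‖ ≤ t)
    (hO : closedBall p (2 * dist ζ p) ⊆ O) : ∃ e : ℂ, ‖e‖ = 1 ∧ ∀ f : Z → ℝ,
      (∀ ξ, ‖cx u v ξ - cx u v p‖ ≤ t → (starRingEnd ℂ e * (cx u v ξ - cx u v p)).re ≤ 0 →
        f ξ = 1) → (∀ ξ, t ≤ (starRingEnd ℂ e * (cx u v ξ - cx u v p)).re → f ξ = 0) →
      ∃ K₀ K₁, ζ ∈ K₀ ∧ p ∈ K₁ ∧ Cfg f K₀ K₁ (dist ζ p / 2) 0 1 := by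
  have hφ := continuous_cx_C u v
  set a := cx u v ζ - cx u v p with ha
  have a0 : 0 < ‖a‖ := ht.trans_le hζ
  have hρ : 0 < dist ζ p := dist_pos.2 fun h => by simp [ha, h] at a0
  have hn : ((‖a‖ : ℝ) : ℂ) ≠ 0 := Complex.ofReal_ne_zero.2 a0.ne'
  refine ⟨a / ‖a‖, by simp [a0.ne'], fun f f1 f0 => ?_⟩
  have ea : (starRingEnd ℂ (a / ‖a‖) * a).re = ‖a‖ := by
    rw [map_div₀, Complex.conj_ofReal, div_mul_eq_mul_div, Complex.conj_mul', sq,
      mul_div_cancel_right₀ _ hn, Complex.ofReal_re]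
  generalize starRingEnd ℂ (a / ‖a‖) = c at f1 f0 ea
  have h0 := harm_re_C H (F := fun z => c * (z - cx u v p)) (by fun_prop)
    (h := ⟨fun ξ => (c * (cx u v ξ - cx u v p)).re, by fun_prop⟩) fun _ => rfl
  have h1 := harm_re_C H (F := fun z => -(c * (z - cx u v p))) (by fun_prop)
    (h := ⟨fun ξ => (-(c * (cx u v ξ - cx u v p))).re, by fun_prop⟩) fun _ => rfl
  obtain ⟨K₀, c₀, m₀, -, ⟨ω₀, o₀, d₀⟩, u₀⟩ := DF.maxp X h0 (ξ := ζ) (ζ := p) (half_pos hρ)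
    ((closedBall_subset_closedBall' (by linarith)).trans hO) (by rw [dist_comm p]; linarith)
  obtain ⟨K₁, c₁, m₁, s₁, ⟨ω₁, o₁, d₁⟩, u₁⟩ := DF.maxp X h1 (ξ := p) (ζ := ζ) (half_pos hρ)
    ((closedBall_subset_closedBall (by linarith)).trans hO) (by linarith)
  refine ⟨K₀, K₁, m₀, m₁, c₀, c₁, half_pos hρ, d₀ ▸ dist_le_diam_of_mem c₀.1.isBounded o₀ m₀,
    d₁ ▸ dist_le_diam_of_mem c₁.1.isBounded o₁ m₁, zero_le_one, fun ξ hξ => (f0 ξ ?_).le,
    fun ξ hξ => (f1 ξ (hm ξ ?_) ?_).ge⟩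
  · have : (c * a).re ≤ (c * (cx u v ξ - cx u v p)).re := u₀ ξ hξ
    linarith
  · have := mem_closedBall.1 (s₁ hξ)
    linarith
  · have : (-(c * (cx u v p - cx u v p))).re ≤ (-(c * (cx u v ξ - cx u v p))).re := u₁ ξ hξ
    simpa using this

theorem step_CCmin (X : GP G Z) (H : D.HM O u v) : ∃ c > 0, ∃ A > 0, ∀ W : Set Z, IsOpen W →
    W ⊆ O → ∀ p ∈ W, NcC (cx u v) p → ∀ t₀ > 0, ∃ t > 0, t ≤ t₀ ∧ ∃ ψ : ℂ → ℝ, ContDiff ℝ 2 ψ ∧
      tsupport ψ ⊆ ball (cx u v p) (3 * t) ∧ (∀ z, grad2 ψ z ≤ A / t ^ 2) ∧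
      c ≤ ∫ ξ in W, grad2 ψ (cx u v ξ) ∂D.Γ u := by
  obtain ⟨Λ, hΛ, hl⟩ := X.llc1
  obtain ⟨A, hA⟩ := halfcut
  obtain ⟨c, hc, h2⟩ := D.l2 (1 / (4 * Λ)) (by positivity)
  obtain ⟨i1, -, i2⟩ := sph_conn X.sph
  have hφ := continuous_cx_C u v
  refine ⟨c, hc, |A| + 1, by positivity, fun W hW hWO p hp hn t₀ ht₀ => ?_⟩
  obtain ⟨R, hR, hRW⟩ := nhds_basis_closedBall.mem_iff.1 (hW.mem_nhds hp)
  obtain ⟨ξ₀, b₀, n₀⟩ := hn.freq (ball_mem_nhds p (show 0 < R / (Λ + 1) by positivity))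
  set t := min t₀ ‖cx u v ξ₀ - cx u v p‖
  have ht : 0 < t := lt_min ht₀ (norm_pos_iff.2 (sub_ne_zero.2 n₀))
  have hS : IsCompact {ξ | t ≤ ‖cx u v ξ - cx u v p‖} :=
    (isClosed_le continuous_const (by fun_prop)).isCompact
  have t1 : ξ₀ ∈ {ξ | t ≤ ‖cx u v ξ - cx u v p‖} := min_le_right t₀ _
  obtain ⟨ζ, hζ, hm⟩ := hS.exists_isMinOn ⟨ξ₀, t1⟩
    (f := fun ξ => dist ξ p) (by fun_prop)
  have hρ : dist ζ p * (Λ + 1) ≤ R :=
    (le_div_iff₀ (by positivity)).1 ((hm t1).trans (mem_ball.1 b₀).le)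
  have ρ0 : 0 ≤ dist ζ p := dist_nonneg
  obtain ⟨e, he, hcfg⟩ := cfg_CCmin X H ht hζ (fun ξ hξ => le_of_not_ge fun h => hξ.not_ge (hm h))
    ((closedBall_subset_closedBall (by nlinarith)).trans (hRW.trans hWO))
  obtain ⟨ψ, p2, p1, p0, ps, pg⟩ := hA (cx u v p) e t he ht
  refine ⟨t, ht, min_le_left _ _, ψ, p2, ps, fun z => (pg z).trans ?_, ?_⟩
  · gcongr
    linarith [le_abs_self A]
  obtain ⟨K₀, K₁, m₀, m₁, cf⟩ := hcfg (fun ξ => ψ (cx u v ξ)) (fun ξ => p1 _) fun ξ => p0 _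
  obtain ⟨γ, hγ⟩ := hl p ζ
  rw [dist_comm p ζ] at hγ
  have hσ : range γ ⊆ closedBall p (Λ * dist ζ p) := range_subset_iff.2 hγ
  have hth : cthickening (dist ζ p / 2) (range γ) ⊆ W := by
    refine (cthickening_subset_of_subset _ hσ).trans ?_
    rw [← cthickening_singleton p (by positivity)]
    refine (cthickening_cthickening_subset (by positivity) (by positivity) _).trans ?_
    rw [cthickening_singleton p (by positivity)]
    exact (closedBall_subset_closedBall (by nlinarith)).trans hRW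
  obtain ⟨hd, hE⟩ := energy_C H p2 (h := ⟨fun ξ => ψ (cx u v ξ), p2.continuous.comp hφ⟩)
    (fun _ => rfl) isClosed_cthickening.isCompact hW hth hWO
  refine le_trans ?_ hE
  have := h2 _ hd K₀ K₁ _ 0 1 cf (range γ) (isConnected_range γ.continuous).isPreconnected
    ⟨ζ, γ.target_mem_range, m₀⟩ ⟨p, γ.source_mem_range, m₁⟩ (by
      have := diam_le_of_subset_closedBall (by positivity) hσ
      rw [one_div, inv_mul_le_iff₀ (by positivity)]
      linarith)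
  simpa using this

theorem cmin_C (X : GP G Z) (H : D.HM O u v) : ∃ c > 0, ∀ (W : Set Z) (w : ℂ) (r : ℝ) (h : ℂ → ℝ),
    PrpC (cx u v) O W w r → DensC (D.Γ u) (cx u v) W (fun _ => 1) w r h →
      ∀ p ∈ W, c ≤ h (cx u v p) := by
  obtain ⟨c, hc, A, hA, hs⟩ := step_CCmin X H
  have hπ := Real.pi_pos
  refine ⟨c / (9 * Real.pi * A), by positivity, fun W w r h hW hD p hp => ?_⟩
  by_contra hlt
  obtain ⟨B, b1, b2⟩ := exists_between (max_lt (not_le.1 hlt)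
    (show 0 < c / (9 * Real.pi * A) by positivity))
  have hb := isOpen_ball.mem_nhds (hW.map p hp)
  have h1 : ∀ᶠ z in 𝓝 (cx u v p), h z < B :=
    (hD.cont.continuousAt hb).eventually_lt continuousAt_const ((le_max_left _ _).trans_lt b1)
  obtain ⟨s, s0, hsb⟩ := Metric.mem_nhds_iff.1 (inter_mem hb h1)
  obtain ⟨t, t0, ts, ψ, p2, ps, pg, pc⟩ :=
    hs W hW.op hW.sub p hp (hW.nc X H hD p hp) (s / 3) (by positivity)
  obtain ⟨g1, g2, g3⟩ := grad2_CCmin p2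
  have hsub := (ball_subset_ball (by linarith : 3 * t ≤ s)).trans hsb
  have e := hD.2 _ g1 ((g2.trans ps).trans fun z hz => (hsub hz).1)
  simp only [one_mul] at e
  have h2 := int_le_C (hD.cont.mono fun z hz => (hsub hz).1) g1 (g2.trans ps)
    ((le_max_right _ _).trans b1.le) (fun z hz => (hsub hz).2.le) g3 pg
  have e2 : B * (A / t ^ 2) * (Real.pi * (3 * t) ^ 2) = B * (9 * Real.pi * A) := by
    field_simp
    norm_num
  rw [lt_div_iff₀ (by positivity)] at b2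
  linarith

end Vale.Agent.P198
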