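import Vale.Agent.P198.E.Main
import Vale.Agent.P198.W.Main

/-! # P198 block C: definitions -/

namespace Vale.Agent.P198
open Set Metric Filter Topology MeasureTheory
open InnerProductSpace Laplacian

/-- `W` is an open piece of `O` that `φ` maps properly into the disc `ball w r`. -/
structure PrpC {Z : Type} [TopologicalSpace Z] (φ : Z → ℂ) (O W : Set Z) (w : ℂ) (r : ℝ) :
    Prop where
  op : IsOpen W
  sub : W ⊆ O
  map : ∀ ξ ∈ W, φ ξ ∈ ball w r
  cpt : ∀ s < r, IsCompact (W ∩ φ ⁻¹' closedBall w s)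

/-- The image under `φ` of `f m` restricted to `W` has the harmonic density `H` on the disc. -/
def DensC {Z : Type} [MeasurableSpace Z] (m : Measure Z) (φ : Z → ℂ) (W : Set Z) (f : Z → ℝ)
    (w : ℂ) (r : ℝ) (H : ℂ → ℝ) : Prop :=
  HarmonicOnNhd H (ball w r) ∧ ∀ ψ : ℂ → ℝ, Continuous ψ → tsupport ψ ⊆ ball w r →
    ∫ ξ in W, f ξ * ψ (φ ξ) ∂m = ∫ z, H z * ψ z

/-- No nontrivial continuum through `p` lies in the fibre of `φ` through `p`. -/
def NcC {Z : Type} [TopologicalSpace Z] (φ : Z → ℂ) (p : Z) : Prop :=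
  ∀ K, Cont K → p ∈ K → (∀ ξ ∈ K, φ ξ = φ p) → K ⊆ {p}

theorem continuous_cx_C {Z : Type} [TopologicalSpace Z] (u v : C(Z, ℝ)) : Continuous (cx u v) :=
  (Complex.equivRealProdCLM.symm.continuous.comp (u.continuous.prodMk v.continuous)).congr
    fun _ => rfl

theorem DensC.cont {Z : Type} [MeasurableSpace Z] {m : Measure Z} {φ : Z → ℂ} {W : Set Z}
    {f : Z → ℝ} {w : ℂ} {r : ℝ} {H : ℂ → ℝ} (h : DensC m φ W f w r H) :
    ContinuousOn H (ball w r) := fun z hz => (h.1 z hz).1.continuousAt.continuousWithinAt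

theorem harm_mono_C {G Z : Type} [Group G] [MetricSpace Z] [CompactSpace Z] [MulAction G Z]
    [ContinuousConstSMul G Z] [MeasurableSpace Z] {D : DF G Z} {O W : Set Z} {f : C(Z, ℝ)}
    (h : D.Harm O f) (hW : W ⊆ O) : D.Harm W f :=
  ⟨h.1, fun g hg hs => h.2 g hg (hs.trans hW)⟩

end Vale.Agent.P198
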