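import Vale.Agent.P198.C.Green

/-! # P198 block C: harmonic densities
Apply weyl to m = (Γ u).restrict W.  Given ψ of class C² with tsupport ψ ⊆ ball w s, s < r
(exists_lt_subset_ball), K = W ∩ φ ⁻¹' closedBall w s is compact.  g = ψ ∘ φ is in dom (DF.chain);
h = W.indicator g equals g near points of W and 0 near points off K, so it is continuous, in dom
(DF.mem_loc), tsupport h ⊆ K.  θ from DF.cutoff K W.  green_C for θ * f:
I 1 (θ f) g = - ∫ θ f Δψ φ = - ∫_W f Δψ φ (Δ ψ = 0 off tsupport ψ).  DF.orth: I 1 (θ f) (g - h) = 0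
and I 1 (θ f - f) h = 0; I 1 f h = 0 since f is harmonic on W.
exists_dens_one_C: harm_re_C with F = 1 and harm_mono_C. -/

namespace Vale.Agent.P198
open Set Metric Filter Topology MeasureTheory
open InnerProductSpace Laplacian
variable {G Z : Type} [Group G] [MetricSpace Z] [CompactSpace Z] [MulAction G Z]
  [ContinuousConstSMul G Z] [MeasurableSpace Z] [BorelSpace Z]
  {D : DF G Z} {O : Set Z} {u v : C(Z, ℝ)}

theorem ev_CDens {Z : Type} [TopologicalSpace Z] {F : Z → ℝ} {ξ : Z} (h : ∀ᶠ ζ in 𝓝 ξ, F ζ = 0) :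
    ∀ᶠ ζ in 𝓝 ξ, F ζ = F ξ := h.mono fun _ e => e.trans h.self_of_nhds.symm

theorem lap_CDens {ψ : ℂ → ℝ} {z : ℂ} (h : z ∉ tsupport ψ) : Δ ψ z = 0 := by
  have e : ψ =ᶠ[𝓝 z] fun _ => 0 := notMem_tsupport_iff_eventuallyEq.1 h
  rw [(laplacian_congr_nhds e).self_of_nhds, laplacian_const]
  rfl

theorem exists_dens_C (H : D.HM O u v) {W : Set Z} {w : ℂ} {r : ℝ} (hW : PrpC (cx u v) O W w r)
    {f : C(Z, ℝ)} (hf : D.Harm W f) : ∃ h, DensC (D.Γ u) (cx u v) W f w r h := by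
  have hφ := continuous_cx_C u v
  have := D.fin u
  refine weyl ((D.Γ u).restrict W) hφ.measurable
    (f.continuous.integrable_of_hasCompactSupport (HasCompactSupport.of_compactSpace _)) w r ?_
  intro ψ hψ hs
  obtain ⟨s, hsr, hs⟩ := exists_lt_subset_ball (isClosed_tsupport ψ) hs
  have hK := hW.cpt s hsr
  set K := W ∩ cx u v ⁻¹' closedBall w s with hKd
  have off : ∀ ξ ∈ W, ξ ∉ K → cx u v ξ ∉ tsupport ψ := fun ξ h1 h2 h3 =>
    h2 ⟨h1, ball_subset_closedBall (hs h3)⟩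
  let g : C(Z, ℝ) := ⟨fun ξ => ψ (cx u v ξ), hψ.continuous.comp hφ⟩
  have hg : g ∈ D.dom := D.c1mem H.hu.1 H.hv.1 (hψ.of_le (by norm_num)) fun _ => rfl
  have z : ∀ ξ, ξ ∉ K → W.indicator g ξ = 0 := fun ξ hξ => by
    by_cases h1 : ξ ∈ W
    · rw [indicator_of_mem h1]
      exact image_eq_zero_of_notMem_tsupport (f := ψ) (off ξ h1 hξ)
    · exact indicator_of_notMem h1 _
  have a : ∀ ξ ∈ W, ∀ᶠ ζ in 𝓝 ξ, W.indicator g ζ = g ζ := fun ξ hξ =>
    Filter.Eventually.mono (hW.op.mem_nhds hξ) fun ζ hζ => indicator_of_mem hζ _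
  have b : ∀ ξ, ξ ∉ K → ∀ᶠ ζ in 𝓝 ξ, W.indicator g ζ = 0 := fun ξ hξ =>
    Filter.Eventually.mono (hK.isClosed.isOpen_compl.mem_nhds hξ) z
  let h : C(Z, ℝ) := ⟨W.indicator g, continuous_iff_continuousAt.2 fun ξ => by
    by_cases h1 : ξ ∈ W
    · exact g.continuous.continuousAt.congr ((a ξ h1).mono fun _ e => e.symm)
    · exact (continuousAt_const (y := (0 : ℝ))).congr
        ((b ξ fun h2 => h1 h2.1).mono fun _ e => e.symm)⟩
  have hh : h ∈ D.dom := D.mem_loc fun ξ => by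
    by_cases h1 : ξ ∈ W
    · exact ⟨g, hg, a ξ h1⟩
    · exact ⟨0, D.dom.zero_mem, b ξ fun h2 => h1 h2.1⟩
  have sh : tsupport h ⊆ K :=
    closure_minimal (fun ξ hξ => by_contra fun h2 => hξ (z ξ h2)) hK.isClosed
  obtain ⟨θ, hθ, -, θ1, θW⟩ := D.cutoff hK hW.op inter_subset_left
  rw [eventually_nhdsSet_iff_forall] at θ1
  have hm : θ * f ∈ D.dom := D.mul_mem hθ hf.1
  have gr := green_C H hm ((tsupport_mul_subset_left (f := θ) (g := f)).trans (θW.trans hW.sub)) hψ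
    (h := g) fun _ => rfl
  have o1 : D.I 1 (θ * f) (g - h) = 0 := D.orth 1 hm (D.dom.sub_mem hg hh) fun ξ => by
    by_cases h1 : ξ ∈ W
    · exact Or.inr (ev_CDens ((a ξ h1).mono fun ζ e => sub_eq_zero.2 e.symm))
    · refine Or.inl (ev_CDens ?_)
      have e : θ =ᶠ[𝓝 ξ] 0 := notMem_tsupport_iff_eventuallyEq.1 fun h2 => h1 (θW h2)
      exact e.mono fun ζ e => mul_eq_zero_of_left e _
  have o2 : D.I 1 (θ * f - f) h = 0 := D.orth 1 (D.dom.sub_mem hm hf.1) hh fun ξ => by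
    by_cases h1 : ξ ∈ K
    · refine Or.inl (ev_CDens ((θ1 ξ h1).mono fun ζ e => ?_))
      show θ ζ * f ζ - f ζ = 0
      rw [e, one_mul, sub_self]
    · exact Or.inr (ev_CDens (b ξ h1))
  have o3 : D.I 1 f h = 0 := hf.2 h hh (sh.trans inter_subset_left)
  rw [map_sub] at o1
  rw [map_sub, LinearMap.sub_apply] at o2
  have e : ∫ ξ, (θ * f) ξ * Δ ψ (cx u v ξ) ∂D.Γ u = ∫ ξ in W, f ξ * Δ ψ (cx u v ξ) ∂D.Γ u := by
    rw [← integral_indicator hW.op.measurableSet]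
    refine integral_congr_ae (Eventually.of_forall fun ξ => ?_)
    show θ ξ * f ξ * Δ ψ (cx u v ξ) = _
    by_cases h1 : ξ ∈ W
    · rw [indicator_of_mem h1]
      by_cases h2 : ξ ∈ K
      · rw [(θ1 ξ h2).self_of_nhds, one_mul]
      · rw [lap_CDens (off ξ h1 h2), mul_zero, mul_zero]
    · rw [indicator_of_notMem h1, image_eq_zero_of_notMem_tsupport fun h2 => h1 (θW h2), zero_mul,
        zero_mul]
  linarith

theorem exists_dens_one_C (H : D.HM O u v) {W : Set Z} {w : ℂ} {r : ℝ}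
    (hW : PrpC (cx u v) O W w r) : ∃ h, DensC (D.Γ u) (cx u v) W (fun _ => 1) w r h :=
  exists_dens_C H hW (f := 1) (harm_mono_C (harm_re_C H (F := fun _ => 1)
    (differentiable_const _) fun _ => rfl) hW.sub)

end Vale.Agent.P198
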