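import Vale.Agent.P198.C.Defs

/-! # P198 block C: the Green formula and the energy of a composition
Write φ = cx u v, a = ψ_x ∘ φ, b = ψ_y ∘ φ (ψ_x z = fderiv ℝ ψ z 1, ψ_y z = fderiv ℝ ψ z I, both C¹).
green_C: DF.chain gives I 1 h θ = I a u θ + I b v θ.  a is in dom (chain for ψ_x), tsupport (θ * a)
lies in O, so 0 = I 1 u (θ * a) = I θ a u + I a θ u (symm, leib), and chain for ψ_x gives
I θ a u = I (θ * ψ_xx φ) u u + I (θ * ψ_xy φ) v u = ∫ θ ψ_xx φ dΓ u + 0 (repr, conf).  Same for b, v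
(conf turns I _ v v into I _ u u).  Laplacian: laplacian_eq_iteratedFDeriv_complexPlane.
harm_re_C: ψ = re ∘ F is C² with Δ ψ = 0 (AnalyticAt.harmonicAt_re), green_C and symm.
energy_C: θ from DF.cutoff (0 ≤ θ ≤ 1, 1 on N, tsupport in W); chain twice and conf give
I θ h h = ∫ θ (a a + b b) dΓ u; (Γ h).real N ≤ ∫ θ dΓ h = I θ h h (repr). -/

namespace Vale.Agent.P198
open Set Metric Filter Topology MeasureTheory
open InnerProductSpace Laplacian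
variable {G Z : Type} [Group G] [MetricSpace Z] [CompactSpace Z] [MulAction G Z]
  [ContinuousConstSMul G Z] [MeasurableSpace Z] [BorelSpace Z]
  {D : DF G Z} {O : Set Z} {u v : C(Z, ℝ)}

theorem exc_CGreen {Z : Type} [TopologicalSpace Z] (u v : C(Z, ℝ)) {T : ℂ → ℝ}
    (hT : Continuous T) : ∃ a : C(Z, ℝ), ∀ ξ, a ξ = T (cx u v ξ) :=
  ⟨⟨fun ξ => T (cx u v ξ), hT.comp (continuous_cx_C u v)⟩, fun _ => rfl⟩

theorem pd_CGreen {ψ : ℂ → ℝ} (hψ : ContDiff ℝ 2 ψ) (e : ℂ) :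
    ContDiff ℝ 1 (fun z => fderiv ℝ ψ z e) :=
  (hψ.fderiv_right (m := 1) (by norm_num)).clm_apply contDiff_const

theorem pc_CGreen {ψ : ℂ → ℝ} (hψ : ContDiff ℝ 1 ψ) (e : ℂ) :
    Continuous (fun z => fderiv ℝ ψ z e) :=
  (hψ.continuous_fderiv (by norm_num)).clm_apply continuous_const

theorem pd2_CGreen {ψ : ℂ → ℝ} (hψ : ContDiff ℝ 2 ψ) (e z : ℂ) :
    fderiv ℝ (fun z => fderiv ℝ ψ z e) z e = iteratedFDeriv ℝ 2 ψ z ![e, e] := by
  have hd : DifferentiableAt ℝ (fderiv ℝ ψ) z :=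
    ((hψ.fderiv_right (m := 1) (by norm_num)).differentiable (by norm_num)) z
  rw [iteratedFDeriv_two_apply, fderiv_clm_apply hd (differentiableAt_const e)]
  simp

theorem ibp_CGreen {w a θ : C(Z, ℝ)} (hw : D.Harm O w) (ha : a ∈ D.dom) (hθ : θ ∈ D.dom)
    (hO : tsupport θ ⊆ O) : D.I a w θ = -D.I θ a w := by
  have h0 := hw.2 (θ * a) (D.mul_mem hθ ha) (tsupport_mul_subset_left.trans hO)
  rw [D.symm, D.leib 1 hθ ha hw.1, one_mul, one_mul, D.symm a θ w] at h0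
  linarith

theorem green_C (H : D.HM O u v) {θ : C(Z, ℝ)} (hθ : θ ∈ D.dom) (hO : tsupport θ ⊆ O)
    {ψ : ℂ → ℝ} (hψ : ContDiff ℝ 2 ψ) {h : C(Z, ℝ)} (hh : ∀ ξ, h ξ = ψ (cx u v ξ)) :
    D.I 1 θ h = -∫ ξ, θ ξ * Δ ψ (cx u v ξ) ∂D.Γ u := by
  have hu := H.hu.1
  have hv := H.hv.1
  have hψ1 : ContDiff ℝ 1 ψ := hψ.of_le (by norm_num)
  obtain ⟨a, ha⟩ := exc_CGreen u v (pc_CGreen hψ1 1)
  obtain ⟨b, hb⟩ := exc_CGreen u v (pc_CGreen hψ1 Complex.I)
  obtain ⟨aa, haa⟩ := exc_CGreen u v (pc_CGreen (pd_CGreen hψ 1) 1)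
  obtain ⟨ab, hab⟩ := exc_CGreen u v (pc_CGreen (pd_CGreen hψ 1) Complex.I)
  obtain ⟨ba, hba⟩ := exc_CGreen u v (pc_CGreen (pd_CGreen hψ Complex.I) 1)
  obtain ⟨bb, hbb⟩ := exc_CGreen u v (pc_CGreen (pd_CGreen hψ Complex.I) Complex.I)
  obtain ⟨-, e0⟩ := D.chain hu hv hψ1 hh ha hb
  obtain ⟨ma, e1⟩ := D.chain hu hv (pd_CGreen hψ 1) ha haa hab
  obtain ⟨mb, e2⟩ := D.chain hu hv (pd_CGreen hψ Complex.I) hb hba hbb
  have hs : ∀ g : C(Z, ℝ), tsupport (θ * g) ⊆ O := fun g => tsupport_mul_subset_left.trans hO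
  rw [D.symm, e0 1 θ hθ, one_mul, one_mul, ibp_CGreen H.hu ma hθ hO, ibp_CGreen H.hv mb hθ hO,
    e1 θ u hu, e2 θ v hv, D.symm (θ * ab) v u, (H.conf _ (hs ab)).2, (H.conf _ (hs ba)).2,
    ← (H.conf _ (hs bb)).1]
  have e3 : D.I (θ * aa + θ * bb) u u = D.I (θ * aa) u u + D.I (θ * bb) u u := by
    rw [map_add, LinearMap.add_apply, LinearMap.add_apply]
  have e4 : D.I (θ * aa + θ * bb) u u = ∫ ξ, θ ξ * Δ ψ (cx u v ξ) ∂D.Γ u := by
    rw [D.repr _ u hu]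
    refine integral_congr_ae (Eventually.of_forall fun ξ => ?_)
    simp only [ContinuousMap.add_apply, ContinuousMap.mul_apply]
    rw [haa, hbb, pd2_CGreen hψ, pd2_CGreen hψ, laplacian_eq_iteratedFDeriv_complexPlane]
    ring
  linarith

theorem harm_re_C (H : D.HM O u v) {F : ℂ → ℂ} (hF : Differentiable ℂ F) {h : C(Z, ℝ)}
    (hh : ∀ ξ, h ξ = (F (cx u v ξ)).re) : D.Harm O h := by
  have hH : ∀ z, HarmonicAt (fun z => (F z).re) z := fun z => (hF.analyticAt z).harmonicAt_re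
  have hψ : ContDiff ℝ 2 (fun z => (F z).re) := contDiff_iff_contDiffAt.2 fun z => (hH z).1
  refine ⟨D.c1mem H.hu.1 H.hv.1 (hψ.of_le (by norm_num)) hh, fun θ hθ hO => ?_⟩
  rw [D.symm, green_C H hθ hO hψ hh]
  have h0 : ∀ ξ, θ ξ * Δ (fun z => (F z).re) (cx u v ξ) = 0 := fun ξ => by
    rw [(hH (cx u v ξ)).2.self_of_nhds, Pi.zero_apply, mul_zero]
  simp only [h0, integral_zero, neg_zero]

theorem energy_C (H : D.HM O u v) {ψ : ℂ → ℝ} (hψ : ContDiff ℝ 2 ψ) {h : C(Z, ℝ)}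
    (hh : ∀ ξ, h ξ = ψ (cx u v ξ)) {N W : Set Z} (hN : IsCompact N) (hW : IsOpen W) (hNW : N ⊆ W)
    (hWO : W ⊆ O) :
    h ∈ D.dom ∧ (D.Γ h).real N ≤ ∫ ξ in W, grad2 ψ (cx u v ξ) ∂D.Γ u := by
  have hu := H.hu.1
  have hv := H.hv.1
  have hψ1 : ContDiff ℝ 1 ψ := hψ.of_le (by norm_num)
  obtain ⟨a, ha⟩ := exc_CGreen u v (pc_CGreen hψ1 1)
  obtain ⟨b, hb⟩ := exc_CGreen u v (pc_CGreen hψ1 Complex.I)
  obtain ⟨mh, e0⟩ := D.chain hu hv hψ1 hh ha hb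
  refine ⟨mh, ?_⟩
  obtain ⟨θ, -, h01, h1, hs⟩ := D.cutoff hN hW hNW
  have hs1 : ∀ g : C(Z, ℝ), tsupport (θ * g) ⊆ W := fun g => tsupport_mul_subset_left.trans hs
  have hs2 : ∀ g g' : C(Z, ℝ), tsupport (θ * g * g') ⊆ O := fun g g' =>
    (tsupport_mul_subset_left.trans (hs1 g)).trans hWO
  have := D.fin u
  have := D.fin h
  have hint : ∀ (g : C(Z, ℝ)) (f : C(Z, ℝ)), Integrable g (D.Γ f) := fun g f => by
    have := D.fin f
    exact g.continuous.integrable_of_hasCompactSupport (HasCompactSupport.of_compactSpace _)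
  have e1 : D.I θ h h = D.I (θ * a * a + θ * b * b) u u := by
    rw [e0 θ h mh, D.symm (θ * a) u h, D.symm (θ * b) v h, e0 _ u hu, e0 _ v hv,
      D.symm (θ * a * b) v u, (H.conf _ (hs2 a b)).2, (H.conf _ (hs2 b a)).2,
      ← (H.conf _ (hs2 b b)).1, map_add, LinearMap.add_apply, LinearMap.add_apply]
    ring
  have e2 : (D.Γ h).real N ≤ D.I θ h h := by
    rw [D.repr θ h mh, ← integral_indicator_one hN.measurableSet]
    refine integral_mono ((integrable_const (1 : ℝ)).indicator hN.measurableSet) (hint θ h)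
      fun ξ => ?_
    by_cases hξ : ξ ∈ N
    · rw [indicator_of_mem hξ, h1.self_of_nhdsSet ξ hξ]
      exact le_rfl
    · rw [indicator_of_notMem hξ]
      exact (h01 ξ).1
  have hg : ∀ ξ, grad2 ψ (cx u v ξ) = (a * a + b * b) ξ := fun ξ => by
    simp only [ContinuousMap.add_apply, ContinuousMap.mul_apply, grad2]
    rw [ha, hb]
    ring
  refine e2.trans ?_
  rw [e1, D.repr _ u hu, ← integral_indicator hW.measurableSet]
  simp only [hg]
  refine integral_mono (hint _ u) ((hint _ u).indicator hW.measurableSet) fun ξ => ?_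
  have hn : 0 ≤ (a * a + b * b) ξ := by
    rw [← hg]
    exact grad2_nonneg _ _
  have he : (θ * a * a + θ * b * b) ξ = θ ξ * (a * a + b * b) ξ := by
    simp only [ContinuousMap.add_apply, ContinuousMap.mul_apply]
    ring
  rw [he]
  by_cases hξ : ξ ∈ W
  · rw [indicator_of_mem hξ]
    exact mul_le_of_le_one_left hn (h01 ξ).2
  · rw [indicator_of_notMem hξ, image_eq_zero_of_notMem_tsupport fun h' => hξ (hs h'), zero_mul]

end Vale.Agent.P198
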