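import Vale.Agent.P198.C.Defs

/-! # P198 block C: test functions in a disc
int_test_C: g ψ is continuous (near a point off tsupport ψ it vanishes) with compact support.
le_test_C: if g z > g' z then g - g' ≥ δ on a small disc around z; test with a bump
(exists_continuous_one_zero_of_isCompact, ContDiffBump, or max 0 (s - dist y z)), whose integral is positive.
int_le_C: compare with the indicator of the disc; Complex.volume_ball.
DensC.bound: H ≤ B on ball z (3 r₀) inside ball w r; ψ with 0 ≤ ψ ≤ 1, 1 on closedBall z s,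
tsupport in ball z (3 s); measure of ball z s ≤ ∫ ψ φ = ∫ H ψ ≤ B π (3 s)² (int_le_C).
DensC.shrink: setIntegral_eq_of_subset_of_forall_diff_eq_zero. -/

namespace Vale.Agent.P198
open Set Metric Filter Topology MeasureTheory
open InnerProductSpace Laplacian

theorem bump_CPos (z : ℂ) {s : ℝ} (hs : 0 < s) : ∃ ψ : ℂ → ℝ, Continuous ψ ∧ (∀ y, 0 ≤ ψ y) ∧
    (∀ y, ψ y ≤ 1) ∧ (∀ y ∈ ball z s, ψ y = 1) ∧ tsupport ψ ⊆ ball z (3 * s) := by
  refine ⟨fun y => max 0 (min 1 (2 - dist y z / s)), by fun_prop, fun y => le_max_left _ _,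
    fun y => max_le zero_le_one (min_le_left _ _), fun y hy => ?_, ?_⟩
  · have h1 : dist y z / s < 1 := (div_lt_one hs).2 hy
    simp only
    rw [min_eq_left (by linarith), max_eq_right zero_le_one]
  · refine (closure_minimal (fun y hy => ?_) isClosed_closedBall).trans
      (closedBall_subset_ball (show 2 * s < 3 * s by linarith))
    by_contra h
    have h1 : 2 < dist y z / s := (lt_div_iff₀ hs).2 (not_le.1 h)
    exact hy (max_eq_left ((min_le_right _ _).trans (by linarith)))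

theorem int_test_C {g ψ : ℂ → ℝ} {w : ℂ} {r : ℝ} (hg : ContinuousOn g (ball w r))
    (hψ : Continuous ψ) (hs : tsupport ψ ⊆ ball w r) :
    Continuous (fun z => g z * ψ z) ∧ tsupport (fun z => g z * ψ z) ⊆ ball w r ∧
      Integrable (fun z => g z * ψ z) := by
  have h1 : tsupport (fun z => g z * ψ z) ⊆ ball w r := tsupport_mul_subset_right.trans hs
  have h2 : Continuous fun z => g z * ψ z :=
    (hg.mul hψ.continuousOn).continuous_of_tsupport_subset isOpen_ball h1
  exact ⟨h2, h1, h2.integrable_of_hasCompactSupport ((isCompact_closedBall w r).of_isClosed_subset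
    (isClosed_tsupport _) (h1.trans ball_subset_closedBall))⟩

theorem le_test_C {g g' : ℂ → ℝ} {w : ℂ} {r : ℝ} (hg : ContinuousOn g (ball w r))
    (hg' : ContinuousOn g' (ball w r))
    (h : ∀ ψ : ℂ → ℝ, Continuous ψ → tsupport ψ ⊆ ball w r → (∀ z, 0 ≤ ψ z) →
      ∫ z, g z * ψ z ≤ ∫ z, g' z * ψ z) : ∀ z ∈ ball w r, g z ≤ g' z := by
  intro z hz
  by_contra hlt
  have hn := isOpen_ball.mem_nhds hz
  have h1 : ∀ᶠ y in 𝓝 z, y ∈ ball w r ∧ g' y < g y :=
    (show ∀ᶠ y in 𝓝 z, y ∈ ball w r from hn).and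
      ((hg'.continuousAt hn).eventually_lt (hg.continuousAt hn) (not_le.1 hlt))
  obtain ⟨ε, hε, h2⟩ := Metric.eventually_nhds_iff_ball.1 h1
  obtain ⟨ψ, hc, h0, -, h3, h4⟩ := bump_CPos z (show 0 < ε / 3 by positivity)
  rw [show 3 * (ε / 3) = ε by ring] at h4
  have h5 : tsupport ψ ⊆ ball w r := fun y hy => (h2 y (h4 hy)).1
  obtain ⟨c1, -, i1⟩ := int_test_C hg hc h5
  obtain ⟨c2, -, i2⟩ := int_test_C hg' hc h5
  have h6 : 0 < ∫ y, (g y * ψ y - g' y * ψ y) := by
    refine integral_pos_of_integrable_nonneg_nonzero (x := z) (c1.sub c2) (i1.sub i2)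
      (fun y => ?_) ?_
    · by_cases hy : y ∈ tsupport ψ
      · exact sub_nonneg.2 (mul_le_mul_of_nonneg_right (h2 y (h4 hy)).2.le (h0 y))
      · simp [image_eq_zero_of_notMem_tsupport hy]
    · rw [h3 z (mem_ball_self (by positivity)), mul_one, mul_one]
      exact (sub_pos.2 (not_le.1 hlt)).ne'
  rw [integral_sub i1 i2] at h6
  linarith [h ψ hc h5 h0]

theorem eq_test_C {g g' : ℂ → ℝ} {w : ℂ} {r : ℝ} (hg : ContinuousOn g (ball w r))
    (hg' : ContinuousOn g' (ball w r))
    (h : ∀ ψ : ℂ → ℝ, Continuous ψ → tsupport ψ ⊆ ball w r → ∫ z, g z * ψ z = ∫ z, g' z * ψ z) :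
    ∀ z ∈ ball w r, g z = g' z := fun z hz =>
  le_antisymm (le_test_C hg hg' (fun ψ h1 h2 _ => (h ψ h1 h2).le) z hz)
    (le_test_C hg' hg (fun ψ h1 h2 _ => (h ψ h1 h2).ge) z hz)

theorem int_le_C {g ψ : ℂ → ℝ} {w : ℂ} {r a B : ℝ} (hg : ContinuousOn g (ball w r))
    (hψ : Continuous ψ) (hs : tsupport ψ ⊆ ball w r) (hB : 0 ≤ B) (hgB : ∀ z ∈ ball w r, g z ≤ B)
    (h0 : ∀ z, 0 ≤ ψ z) (ha : ∀ z, ψ z ≤ a) : ∫ z, g z * ψ z ≤ B * a * (Real.pi * r ^ 2) := by
  have hBa : 0 ≤ B * a := mul_nonneg hB ((h0 w).trans (ha w))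
  have h1 : ∫ z, g z * ψ z ≤ ∫ z, (ball w r).indicator (fun _ => B * a) z := by
    refine integral_mono (int_test_C hg hψ hs).2.2
      ((integrable_indicator_iff measurableSet_ball).2
        (integrableOn_const measure_ball_lt_top.ne)) fun z => ?_
    by_cases hz : z ∈ ball w r
    · simp only [indicator_of_mem hz]
      exact (mul_le_mul_of_nonneg_right (hgB z hz) (h0 z)).trans
        (mul_le_mul_of_nonneg_left (ha z) hB)
    · simp only [indicator_of_notMem hz]
      rw [image_eq_zero_of_notMem_tsupport fun h => hz (hs h), mul_zero]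
  refine h1.trans ?_
  rw [integral_indicator_const _ measurableSet_ball, smul_eq_mul, mul_comm]
  refine mul_le_mul_of_nonneg_left ?_ hBa
  rw [Measure.real, Complex.volume_ball, ENNReal.toReal_mul, ENNReal.toReal_pow,
    ENNReal.toReal_ofReal', ENNReal.coe_toReal, NNReal.coe_real_pi, mul_comm]
  refine mul_le_mul_of_nonneg_left ?_ Real.pi_pos.le
  rcases le_total r 0 with h | h
  · rw [max_eq_right h, zero_pow two_ne_zero]
    exact sq_nonneg r
  · rw [max_eq_left h]

variable {Z : Type} [TopologicalSpace Z] [MeasurableSpace Z] [BorelSpace Z] {m : Measure Z}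
  {φ : Z → ℂ} {W : Set Z} {w : ℂ} {r : ℝ} {H : ℂ → ℝ}

theorem DensC.bound [IsFiniteMeasure m] (hφ : Continuous φ) (h : DensC m φ W (fun _ => 1) w r H)
    {z : ℂ} (hz : z ∈ ball w r) : ∃ A r₀ : ℝ, 0 < r₀ ∧ ∀ s > 0, s ≤ r₀ →
      ((m.restrict W).map φ).real (ball z s) ≤ A * s ^ 2 := by
  obtain ⟨ρ, hρ, hb⟩ := Metric.nhds_basis_closedBall.mem_iff.1 (isOpen_ball.mem_nhds hz)
  obtain ⟨B, hB⟩ := (isCompact_closedBall z ρ).exists_bound_of_continuousOn (h.cont.mono hb)
  have hB0 : 0 ≤ B := (norm_nonneg _).trans (hB z (mem_closedBall_self hρ.le))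
  refine ⟨B * Real.pi * 9, ρ / 3, by positivity, fun s hs hsρ => ?_⟩
  obtain ⟨ψ, hc, h0, h1, h2, h3⟩ := bump_CPos z hs
  have h4 : ball z (3 * s) ⊆ closedBall z ρ :=
    ball_subset_closedBall.trans (closedBall_subset_closedBall (by linarith))
  have h5 := int_le_C (h.cont.mono (h4.trans hb)) hc h3 hB0
    (fun y hy => (le_abs_self _).trans (hB y (h4 hy))) h0 h1
  have h6 := h.2 ψ hc (h3.trans (h4.trans hb))
  simp only [one_mul] at h6
  rw [← integral_map hφ.aemeasurable hc.aestronglyMeasurable] at h6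
  have h7 : ((m.restrict W).map φ).real (ball z s) ≤ ∫ y, ψ y ∂((m.restrict W).map φ) := by
    rw [← integral_indicator_one measurableSet_ball]
    refine integral_mono ((integrable_const (1 : ℝ)).indicator measurableSet_ball)
      ((integrable_const (1 : ℝ)).mono' hc.aestronglyMeasurable (Eventually.of_forall fun y => ?_))
      fun y => ?_
    · rw [Real.norm_of_nonneg (h0 y)]
      exact h1 y
    · by_cases hy : y ∈ ball z s
      · simp only [indicator_of_mem hy, h2 y hy, Pi.one_apply, le_refl]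
      · simp only [indicator_of_notMem hy, h0 y]
  linarith

theorem DensC.shrink {f : Z → ℝ} (hW : IsOpen W) (h : DensC m φ W f w r H) {z : ℂ} {s : ℝ}
    (hb : ball z s ⊆ ball w r) : DensC m φ (W ∩ φ ⁻¹' ball z s) f z s H := by
  refine ⟨fun y hy => h.1 y (hb hy), fun ψ hψ hs => ?_⟩
  rw [← h.2 ψ hψ (hs.trans hb)]
  refine (setIntegral_eq_of_subset_of_forall_sdiff_eq_zero hW.measurableSet inter_subset_left
    fun ξ hξ => ?_).symm
  rw [image_eq_zero_of_notMem_tsupport fun h' => hξ.2 ⟨hξ.1, hs h'⟩, mul_zero]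

end Vale.Agent.P198
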