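import Vale.Agent.P198.C.Defs

/-! # P198 block C: topology of proper pieces
small_cont_C: bump with K = univ, a point ζ ≠ p and a radius 0 < r ≤ dist ζ p, closedBall p r ⊆ N.
NcC.sep: Y = φ ⁻¹' {φ p} is compact, connectedComponentIn Y p is a continuum (its closure is
preconnected inside Y), so it is {p}; sep_comp; φ '' frontier W₀ is compact and misses φ p.
NcC.prp: W = W₀ ∩ φ ⁻¹' ball (φ p) s; W ∩ φ ⁻¹' closedBall _ s' = closure W₀ ∩ φ ⁻¹' closedBall _ s'.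
shrink: exists_lt_subset_ball.  split: NcC.sep with N = W minus p₂, W₁ = W₀ ∩ φ ⁻¹' ball,
W₂ = (W minus closure W₀) ∩ φ ⁻¹' ball.  nhds: for an open N ∋ ξ inside W and φ ξ ∈ ball w s, s < r,
K = (W ∩ φ ⁻¹' closedBall w s) minus N is compact, and ball w s minus φ '' K lies in φ '' N. -/

namespace Vale.Agent.P198
open Set Metric Filter Topology MeasureTheory
open InnerProductSpace Laplacian
variable {Z : Type} [MetricSpace Z] [CompactSpace Z] {φ : Z → ℂ} {O W : Set Z} {w : ℂ} {r : ℝ}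

theorem small_cont_C [ConnectedSpace Z] [Nontrivial Z] {p : Z} {N : Set Z} (hN : N ∈ 𝓝 p) :
    ∃ K, Cont K ∧ p ∈ K ∧ K ⊆ N ∧ 0 < diam K := by
  obtain ⟨ζ, hζ⟩ := exists_ne p
  obtain ⟨ε, hε, h⟩ := nhds_basis_closedBall.mem_iff.1 hN
  have hr : 0 < min ε (dist ζ p) := lt_min hε (dist_pos.2 hζ)
  obtain ⟨K, hK, h1, h2, ξ, h3, h4⟩ := bump (K := univ) ⟨isCompact_univ, isConnected_univ⟩
    (mem_univ p) (mem_univ ζ) hr.le (min_le_right _ _)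
  exact ⟨K, hK, h2, fun x hx => h (closedBall_subset_closedBall (min_le_left _ _) (h1 hx).2),
    hr.trans_le (h4 ▸ dist_le_diam_of_mem hK.1.isBounded h3 h2)⟩

theorem NcC.freq [ConnectedSpace Z] [Nontrivial Z] {p : Z} (hp : NcC φ p) {N : Set Z}
    (hN : N ∈ 𝓝 p) : ∃ ξ ∈ N, φ ξ ≠ φ p := by
  obtain ⟨K, hK, h1, h2, h3⟩ := small_cont_C hN
  by_contra h
  push Not at h
  exact h3.ne' (diam_subsingleton
    (subsingleton_of_subset_singleton (hp K hK h1 fun ξ hξ => h ξ (h2 hξ))))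

omit [CompactSpace Z] in
theorem far_CTop (hφ : Continuous φ) {K : Set Z} (hK : IsCompact K) {z : ℂ}
    (hz : ∀ ξ ∈ K, φ ξ ≠ z) : ∃ s > 0, ∀ ξ ∈ K, s ≤ dist (φ ξ) z := by
  obtain ⟨s, hs, h⟩ := Metric.isOpen_iff.1 (hK.image hφ).isClosed.isOpen_compl z
    fun ⟨ξ, h1, h2⟩ => hz ξ h1 h2
  exact ⟨s, hs, fun ξ hξ => not_lt.1 fun h' => h h' ⟨ξ, hξ, rfl⟩⟩

theorem NcC.sep (hφ : Continuous φ) {p : Z} (hp : NcC φ p) {N : Set Z} (hN : IsOpen N)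
    (hpN : p ∈ N) : ∃ W₀, IsOpen W₀ ∧ p ∈ W₀ ∧ closure W₀ ⊆ N ∧
      ∃ s > 0, ∀ ξ ∈ frontier W₀, s ≤ dist (φ ξ) (φ p) := by
  have hY : IsCompact (φ ⁻¹' {φ p}) := (isClosed_singleton.preimage hφ).isCompact
  have h1 := hp _ (cont_comp_M hY (p := p) rfl) (mem_connectedComponentIn rfl)
    fun ξ hξ => connectedComponentIn_subset (φ ⁻¹' {φ p}) p hξ
  obtain ⟨W₀, k1, k2, k3, k4⟩ := sep_comp hY hN (p := p) rfl
    (h1.trans (singleton_subset_iff.2 hpN))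
  exact ⟨W₀, k1, k2 (mem_connectedComponentIn rfl), k3, far_CTop hφ isClosed_frontier.isCompact
    fun ξ hξ e => disjoint_left.1 k4 hξ e⟩

theorem gen_CTop (hφ : Continuous φ) {U : Set Z} (hU : IsOpen U) (hO : U ⊆ O) {z : ℂ} {s : ℝ}
    (h : ∀ t < s, IsClosed (U ∩ φ ⁻¹' closedBall z t)) : PrpC φ O (U ∩ φ ⁻¹' ball z s) z s := by
  refine ⟨hU.inter (isOpen_ball.preimage hφ), inter_subset_left.trans hO, fun ξ hξ => hξ.2,
    fun t ht => ?_⟩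
  rw [inter_assoc, inter_eq_right.2 (preimage_mono (closedBall_subset_ball ht))]
  exact (h t ht).isCompact

omit [CompactSpace Z] in
theorem mem_CTop {U : Set Z} (hU : IsOpen U) {z : ℂ} {s t : ℝ}
    (h : ∀ ξ ∈ frontier U, s ≤ dist (φ ξ) z) (ht : t < s) {ξ : Z} (h1 : ξ ∈ closure U)
    (h2 : φ ξ ∈ closedBall z t) : ξ ∈ U := by
  by_contra h3
  exact (h ξ (hU.frontier_eq ▸ ⟨h1, h3⟩)).not_gt (lt_of_le_of_lt h2 ht)

omit [CompactSpace Z] in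
theorem in_CTop (hφ : Continuous φ) {U : Set Z} (hU : IsOpen U) {z : ℂ} {s : ℝ}
    (h : ∀ ξ ∈ frontier U, s ≤ dist (φ ξ) z) : ∀ t < s, IsClosed (U ∩ φ ⁻¹' closedBall z t) := by
  intro t ht
  rw [show U ∩ φ ⁻¹' closedBall z t = closure U ∩ φ ⁻¹' closedBall z t from
    Subset.antisymm (inter_subset_inter_left _ subset_closure)
      fun ξ hξ => ⟨mem_CTop hU h ht hξ.1 hξ.2, hξ.2⟩]
  exact isClosed_closure.inter (isClosed_closedBall.preimage hφ)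

omit [CompactSpace Z] in
theorem cl_CTop (hφ : Continuous φ) (hW : PrpC φ O W w r) {z : ℂ} {s : ℝ}
    (hb : ball z s ⊆ ball w r) : ∀ t < s, IsClosed (W ∩ φ ⁻¹' closedBall z t) := by
  intro t ht
  obtain ⟨r', h1, h2⟩ := exists_lt_subset_ball isClosed_closedBall
    ((closedBall_subset_ball ht).trans hb)
  rw [show W ∩ φ ⁻¹' closedBall z t = W ∩ φ ⁻¹' closedBall w r' ∩ φ ⁻¹' closedBall z t from
    Subset.antisymm (fun ξ hξ => ⟨⟨hξ.1, ball_subset_closedBall (h2 hξ.2)⟩, hξ.2⟩)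
      fun ξ hξ => ⟨hξ.1.1, hξ.2⟩]
  exact (hW.cpt r' h1).isClosed.inter (isClosed_closedBall.preimage hφ)

theorem NcC.prp (hφ : Continuous φ) {p : Z} (hp : NcC φ p) (hO : IsOpen O) (hpO : p ∈ O) :
    ∃ W r, p ∈ W ∧ PrpC φ O W (φ p) r := by
  obtain ⟨W₀, k1, k2, k3, s, hs, k4⟩ := hp.sep hφ hO hpO
  exact ⟨W₀ ∩ φ ⁻¹' ball (φ p) s, s, ⟨k2, mem_ball_self hs⟩,
    gen_CTop hφ k1 (subset_closure.trans k3) (in_CTop hφ k1 k4)⟩

theorem PrpC.shrink (hφ : Continuous φ) (hW : PrpC φ O W w r) {z : ℂ} {s : ℝ}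
    (hb : ball z s ⊆ ball w r) : PrpC φ O (W ∩ φ ⁻¹' ball z s) z s :=   gen_CTop hφ hW.op hW.sub (cl_CTop hφ hW hb)

theorem PrpC.split (hφ : Continuous φ) (hW : PrpC φ O W w r) {p₁ p₂ : Z} (h₁ : p₁ ∈ W)
    (h₂ : p₂ ∈ W) (hne : p₁ ≠ p₂) (he : φ p₂ = φ p₁) (hn : NcC φ p₁) :
    ∃ W₁ W₂ s, PrpC φ O W₁ (φ p₁) s ∧ PrpC φ O W₂ (φ p₁) s ∧ p₁ ∈ W₁ ∧ p₂ ∈ W₂ ∧ W₁ ⊆ W ∧
      W₂ ⊆ W ∧ Disjoint W₁ W₂ ∧ ball (φ p₁) s ⊆ ball w r := by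
  obtain ⟨W₀, k1, k2, k3, s₀, hs₀, k4⟩ := hn.sep hφ (hW.op.sdiff (isClosed_singleton (x := p₂)))
    ⟨h₁, hne⟩
  obtain ⟨s₁, hs₁, k5⟩ := exists_ball_subset_ball (hW.map p₁ h₁)
  have hs := lt_min hs₀ hs₁
  have k6 : ∀ ξ ∈ frontier W₀, min s₀ s₁ ≤ dist (φ ξ) (φ p₁) := fun ξ hξ =>
    (min_le_left _ _).trans (k4 ξ hξ)
  have k7 := (ball_subset_ball (min_le_right s₀ s₁)).trans k5
  have k8 : W₀ ⊆ W := subset_closure.trans (k3.trans sdiff_subset)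
  refine ⟨_, _, _, gen_CTop hφ k1 (k8.trans hW.sub) (in_CTop hφ k1 k6),
    gen_CTop hφ (hW.op.sdiff (isClosed_closure (s := W₀))) (sdiff_subset.trans hW.sub)
      fun t ht => ?_, ⟨k2, mem_ball_self hs⟩,
    ⟨⟨h₂, fun h => (k3 h).2 rfl⟩, by rw [mem_preimage, he]; exact mem_ball_self hs⟩,
    inter_subset_left.trans k8, inter_subset_left.trans sdiff_subset,
    disjoint_left.2 fun ξ a b => b.1.2 (subset_closure a.1), k7⟩
  rw [show (W \ closure W₀) ∩ φ ⁻¹' closedBall (φ p₁) t =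
      (W ∩ φ ⁻¹' closedBall (φ p₁) t) \ W₀ from
    Subset.antisymm (fun ξ hξ => ⟨⟨hξ.1.1, hξ.2⟩, fun h => hξ.1.2 (subset_closure h)⟩)
      fun ξ hξ => ⟨⟨hξ.1.1, fun h => hξ.2 (mem_CTop k1 k6 ht h hξ.1.2)⟩, hξ.1.2⟩]
  exact (cl_CTop hφ hW k7 t ht).sdiff k1

omit [CompactSpace Z] in
theorem near_CTop (hφ : Continuous φ) (hW : PrpC φ O W w r) {z : ℂ} (hz : z ∈ ball w r)
    {A : Set Z} (hA : IsOpen A) (hn : ∀ ξ ∈ W, φ ξ = z → ξ ∈ A) :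
    ∃ s > 0, ball z s ⊆ ball w r ∧ ∀ ξ ∈ W, φ ξ ∈ ball z s → ξ ∈ A := by
  obtain ⟨r', h1, h2⟩ := exists_between (mem_ball.1 hz)
  obtain ⟨s₀, hs₀, k1⟩ := far_CTop hφ ((hW.cpt r' h2).diff hA) (z := z)
    fun ξ hξ e => hξ.2 (hn ξ hξ.1.1 e)
  obtain ⟨s₁, hs₁, k2⟩ := exists_ball_subset_ball (mem_ball.2 h1)
  have k3 := (ball_subset_ball (min_le_right s₀ s₁)).trans k2
  refine ⟨_, lt_min hs₀ hs₁, k3.trans (ball_subset_ball h2.le), fun ξ hξ h => ?_⟩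
  by_contra h'
  exact (k1 ξ ⟨⟨hξ, ball_subset_closedBall (k3 h)⟩, h'⟩).not_gt
    ((mem_ball.1 h).trans_le (min_le_left _ _))

/-- A point of the disc outside the image has a disc around it outside the image. -/
theorem PrpC.miss (hφ : Continuous φ) (hW : PrpC φ O W w r) {z : ℂ} (hz : z ∈ ball w r)
    (hn : z ∉ φ '' W) : ∃ s > 0, ball z s ⊆ ball w r ∧ ∀ ξ ∈ W, φ ξ ∉ ball z s := by
  obtain ⟨s, hs, h1, h2⟩ := near_CTop hφ hW hz isOpen_empty fun ξ hξ e => hn ⟨ξ, hξ, e⟩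
  exact ⟨s, hs, h1, h2⟩

theorem PrpC.nhds (hφ : Continuous φ) (hW : PrpC φ O W w r) (hi : InjOn φ W)
    (hs : ball w r ⊆ φ '' W) : ∀ ξ ∈ W, Filter.map φ (𝓝 ξ) = 𝓝 (φ ξ) := by
  intro ξ hξ
  refine le_antisymm hφ.continuousAt (Filter.le_map fun N hN => ?_)
  obtain ⟨s, h0, h1, h2⟩ := near_CTop hφ hW (hW.map ξ hξ) (isOpen_interior (s := N))
    fun η hη e => hi hη hξ e ▸ mem_interior_iff_mem_nhds.2 (hi hη hξ e ▸ hN)
  refine mem_of_superset (ball_mem_nhds _ h0) fun y hy => ?_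
  obtain ⟨η, hη, rfl⟩ := hs (h1 hy)
  exact ⟨η, interior_subset (h2 η hη hy), rfl⟩

end Vale.Agent.P198
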