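import Vale.Agent.P198.C.Dens
import Vale.Agent.P198.C.Pos
import Vale.Agent.P198.C.Top

/-! # P198 block C: harmonic functions are harmonic in the chart
dens_const_C: the density of u (exists_dens_C, harm_mono_C) equals re z * h z on the disc
(test function y ↦ re y * ψ y in hD, eq_test_C), so re z * h z is harmonic (HarmonicAt congr on the
open disc); the same for v; const_of_harm.
harm_inv_C: ι is continuous on ball w r (PrpC.nhds: Tendsto ι (map φ (𝓝 ξ)) (𝓝 ξ)).  With
V' = V ∩ φ ⁻¹' ball z s (PrpC.shrink, DensC.shrink) and the density h' of f on V': test hD with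
y ↦ f (ι y) * ψ y (int_test_C; setIntegral_congr_fun) to get h' y = h w * f (ι y) on ball z s. -/

namespace Vale.Agent.P198
open Set Metric Filter Topology MeasureTheory
open InnerProductSpace Laplacian
variable {G Z : Type} [Group G] [MetricSpace Z] [CompactSpace Z] [MulAction G Z]
  [ContinuousConstSMul G Z] [MeasurableSpace Z] [BorelSpace Z]
  {D : DF G Z} {O : Set Z} {u v : C(Z, ℝ)}
  {V : Set Z} {w : ℂ} {r : ℝ} {h : ℂ → ℝ}

theorem key_CHarm (H : D.HM O u v) (hV : PrpC (cx u v) O V w r)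
    (hD : DensC (D.Γ u) (cx u v) V (fun _ => 1) w r h) {f : C(Z, ℝ)} (hf : D.Harm V f)
    {g : ℂ → ℝ} (hg : ContinuousOn g (ball w r)) (hfg : ∀ ξ ∈ V, f ξ = g (cx u v ξ)) :
    HarmonicOnNhd (fun y => g y * h y) (ball w r) := by
  obtain ⟨h', hD'⟩ := exists_dens_C H hV hf
  have e : ∀ z ∈ ball w r, h' z = g z * h z := by
    refine eq_test_C hD'.cont (hg.mul hD.cont) fun ψ hψ hs => ?_
    obtain ⟨a, b, -⟩ := int_test_C hg hψ hs
    rw [← hD'.2 ψ hψ hs, setIntegral_congr_fun hV.op.measurableSet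
      (g := fun ξ => 1 * (g (cx u v ξ) * ψ (cx u v ξ))) fun ξ hξ => by
        simp only [hfg ξ hξ, one_mul], hD.2 _ a b]
    exact integral_congr_ae (Eventually.of_forall fun z => by ring)
  intro z hz
  refine (harmonicAt_congr_nhds ?_).1 (hD'.1 z hz)
  filter_upwards [isOpen_ball.mem_nhds hz] with y hy using e y hy

theorem dens_const_C (H : D.HM O u v) (hV : PrpC (cx u v) O V w r)
    (hD : DensC (D.Γ u) (cx u v) V (fun _ => 1) w r h) : ∀ z ∈ ball w r, h z = h w := by
  exact const_of_harm hD.1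
    (key_CHarm H hV hD (harm_mono_C H.hu hV.sub) Complex.continuous_re.continuousOn fun _ _ => rfl)
    (key_CHarm H hV hD (harm_mono_C H.hv hV.sub) Complex.continuous_im.continuousOn fun _ _ => rfl)

theorem harm_inv_C (H : D.HM O u v) (hV : PrpC (cx u v) O V w r)
    (hD : DensC (D.Γ u) (cx u v) V (fun _ => 1) w r h) (hi : InjOn (cx u v) V)
    (hs : ball w r ⊆ cx u v '' V) (h0 : ∀ z ∈ ball w r, 0 < h z) {ι : ℂ → Z}
    (hι : ∀ ξ ∈ V, ι (cx u v ξ) = ξ) {z : ℂ} {s : ℝ} (hb : ball z s ⊆ ball w r) {f : C(Z, ℝ)}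
    (hf : D.Harm (V ∩ cx u v ⁻¹' ball z s) f) : HarmonicOnNhd (fun y => f (ι y)) (ball z s) := by
  have hφ := continuous_cx_C u v
  have hg : ContinuousOn (fun y => f (ι y)) (ball z s) := by
    intro y hy
    obtain ⟨ξ, hξ, rfl⟩ := hs (hb hy)
    refine ContinuousAt.continuousWithinAt ?_
    rw [ContinuousAt, ← hV.nhds hφ hi hs ξ hξ, tendsto_map'_iff, hι ξ hξ]
    refine f.continuous.continuousAt.congr' ?_
    filter_upwards [hV.op.mem_nhds hξ] with ζ hζ
    simp only [Function.comp, hι ζ hζ]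
  have k := key_CHarm H (hV.shrink hφ hb) (hD.shrink hV.op hb) hf hg fun ξ hξ => by
    rw [hι ξ hξ.1]
  intro y hy
  have hw := (h0 w (mem_ball_self (pos_of_mem_ball (hb hy)))).ne'
  refine (harmonicAt_congr_nhds ?_).1 ((k y hy).const_smul (c := (h w)⁻¹))
  filter_upwards [isOpen_ball.mem_nhds hy] with x hx
  simp only [Pi.smul_apply, smul_eq_mul, dens_const_C H hV hD x (hb hx)]
  field_simp

end Vale.Agent.P198
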