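import Vale.Agent.P198.C.Cmin
import Vale.Agent.P198.C.Dens

/-! # P198 block C: a proper piece on which the map is a bijection onto a disc
S = set of the values h (φ p) over all PrpC W w r, DensC W 1 w r h, p ∈ W: nonempty (exists_nc_C,
NcC.prp, exists_dens_one_C), bounded below by c > 0 (cmin_C).  Pick a value below 2 sInf S, shrink
the disc around φ p so that 0 < h < 2 sInf S on it (DensC.cont, PrpC.shrink, DensC.shrink).
Injective: PrpC.nc, PrpC.split, densities h₁, h₂ of W₁, W₂ satisfy h₁ + h₂ ≤ h on the small disc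
(le_test_C, int_test_C, setIntegral_union, setIntegral_mono_set), both values are at least sInf S.
Onto: PrpC.miss, then ∫ h ψ = 0 for ψ supported in the small disc, eq_test_C with g' = 0. -/

namespace Vale.Agent.P198
open Set Metric Filter Topology MeasureTheory
open InnerProductSpace Laplacian
variable {G Z : Type} [Group G] [MetricSpace Z] [CompactSpace Z] [MulAction G Z]
  [ContinuousConstSMul G Z] [MeasurableSpace Z] [BorelSpace Z]
  {D : DF G Z} {O : Set Z} {u v : C(Z, ℝ)}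

theorem add_CInj {m : Measure Z} [IsFiniteMeasure m] {φ : Z → ℂ} (hφ : Continuous φ)
    {V W₁ W₂ : Set Z} {w z : ℂ} {r s : ℝ} {h h₁ h₂ : ℂ → ℝ} (hV : DensC m φ V (fun _ => 1) w r h)
    (d₁ : DensC m φ W₁ (fun _ => 1) z s h₁) (d₂ : DensC m φ W₂ (fun _ => 1) z s h₂)
    (s₁ : W₁ ⊆ V) (s₂ : W₂ ⊆ V) (hd : Disjoint W₁ W₂) (o₂ : IsOpen W₂)
    (hb : ball z s ⊆ ball w r) : ∀ y ∈ ball z s, h₁ y + h₂ y ≤ h y := by
  refine le_test_C (g := fun y => h₁ y + h₂ y) (d₁.cont.add d₂.cont) (hV.cont.mono hb)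
    fun ψ hψ hs h0 => ?_
  have hi : Integrable (fun ξ => (1 : ℝ) * ψ (φ ξ)) m :=
    (continuous_const.mul (hψ.comp hφ)).integrable_of_hasCompactSupport
      (HasCompactSupport.of_compactSpace _)
  simp only [add_mul]
  rw [integral_add (int_test_C d₁.cont hψ hs).2.2 (int_test_C d₂.cont hψ hs).2.2, ← d₁.2 ψ hψ hs,
    ← d₂.2 ψ hψ hs, ← hV.2 ψ hψ (hs.trans hb),
    ← setIntegral_union hd o₂.measurableSet hi.integrableOn hi.integrableOn]
  exact setIntegral_mono_set hi.integrableOn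
    (Eventually.of_forall fun ξ => mul_nonneg zero_le_one (h0 _))
    (union_subset s₁ s₂).eventuallyLE

omit [CompactSpace Z] in
theorem onto_CInj {m : Measure Z} {φ : Z → ℂ} {V : Set Z} (hV : IsOpen V) {w z : ℂ} {r s : ℝ}
    {h : ℂ → ℝ} (hD : DensC m φ V (fun _ => 1) w r h) (hs : 0 < s) (hb : ball z s ⊆ ball w r)
    (hn : ∀ ξ ∈ V, φ ξ ∉ ball z s) : h z = 0 := by
  refine eq_test_C (g' := fun _ => 0) (hD.cont.mono hb) continuousOn_const
    (fun ψ hψ ht => ?_) z (mem_ball_self hs)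
  rw [← hD.2 ψ hψ (ht.trans hb)]
  simp only [zero_mul, integral_zero]
  refine setIntegral_eq_zero_of_forall_eq_zero fun ξ hξ => ?_
  rw [image_eq_zero_of_notMem_tsupport fun hh => hn ξ hξ (ht hh), mul_zero]

theorem exists_inj_C (X : GP G Z) (H : D.HM O u v) : ∃ (V : Set Z) (w : ℂ) (r : ℝ) (h : ℂ → ℝ),
    V.Nonempty ∧ PrpC (cx u v) O V w r ∧ DensC (D.Γ u) (cx u v) V (fun _ => 1) w r h ∧
      InjOn (cx u v) V ∧ ball w r ⊆ cx u v '' V ∧ ∀ z ∈ ball w r, 0 < h z := by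
  have hφ := continuous_cx_C u v
  have := D.fin u
  obtain ⟨c, hc, hmin⟩ := cmin_C X H
  set S : Set ℝ := {a | ∃ (W : Set Z) (w : ℂ) (r : ℝ) (h : ℂ → ℝ) (p : Z),
    PrpC (cx u v) O W w r ∧ DensC (D.Γ u) (cx u v) W (fun _ => 1) w r h ∧ p ∈ W ∧
      a = h (cx u v p)} with hS
  have hb : c ∈ lowerBounds S := by
    rintro _ ⟨W, w, r, h, p, h1, h2, h3, rfl⟩
    exact hmin W w r h h1 h2 p h3
  have hne : S.Nonempty := by
    obtain ⟨p, hp, hn⟩ := exists_nc_C X H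
    obtain ⟨W, r, h1, h2⟩ := hn.prp hφ H.op hp
    obtain ⟨h, h3⟩ := exists_dens_one_C H h2
    exact ⟨_, W, _, r, h, p, h2, h3, h1, rfl⟩
  have hI : c ≤ sInf S := le_csInf hne hb
  obtain ⟨_, ⟨W, w, r, h, p, h1, h2, h3, rfl⟩, h4⟩ :=
    exists_lt_of_csInf_lt hne (show sInf S < 2 * sInf S by linarith)
  have h5 := h1.map p h3
  have h6 : ContinuousAt h (cx u v p) := h2.cont.continuousAt (isOpen_ball.mem_nhds h5)
  have h7 : ∀ᶠ z in 𝓝 (cx u v p), z ∈ ball w r ∧ 0 < h z ∧ h z < 2 * sInf S :=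
    (isOpen_ball.eventually_mem h5).and
      ((h6.eventually (lt_mem_nhds (hc.trans_le (hmin W w r h h1 h2 p h3)))).and
        (h6.eventually (gt_mem_nhds h4)))
  obtain ⟨s, hs, h8⟩ := Metric.eventually_nhds_iff_ball.1 h7
  have h9 : ball (cx u v p) s ⊆ ball w r := fun z hz => (h8 z hz).1
  have hP := h1.shrink hφ h9
  have hD := h2.shrink h1.op h9
  refine ⟨W ∩ cx u v ⁻¹' ball (cx u v p) s, _, s, h, ⟨p, h3, mem_ball_self hs⟩, hP, hD,
    fun p₁ hp₁ p₂ hp₂ he => ?_,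
    fun z hz => ?_, fun z hz => (h8 z hz).2.1⟩
  · by_contra hn
    obtain ⟨W₁, W₂, t, a1, a2, a3, a4, a5, a6, a7, a8⟩ :=
      hP.split hφ hp₁ hp₂ hn he.symm (hP.nc X H hD p₁ hp₁)
    obtain ⟨g₁, d₁⟩ := exists_dens_one_C H a1
    obtain ⟨g₂, d₂⟩ := exists_dens_one_C H a2
    have b1 := add_CInj hφ hD d₁ d₂ a5 a6 a7 a2.op a8 _ (a1.map p₁ a3)
    have b2 : sInf S ≤ g₁ (cx u v p₁) := csInf_le ⟨c, hb⟩ ⟨W₁, _, t, g₁, p₁, a1, d₁, a3, rfl⟩
    have b3 : sInf S ≤ g₂ (cx u v p₂) := csInf_le ⟨c, hb⟩ ⟨W₂, _, t, g₂, p₂, a2, d₂, a4, rfl⟩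
    rw [← he] at b3
    linarith [(h8 _ (hP.map p₁ hp₁)).2.2]
  · by_contra hn
    obtain ⟨t, ht, a1, a2⟩ := hP.miss hφ hz hn
    exact (h8 z hz).2.1.ne' (onto_CInj hP.op hD ht a1 a2)

end Vale.Agent.P198
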