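import Vale.Agent.P198.C.Inj
import Vale.Agent.P198.C.Harm

/-! # P198 block C: a conformal chart (interface) -/

namespace Vale.Agent.P198
open Set Metric Filter Topology MeasureTheory
variable {G Z : Type} [Group G] [MetricSpace Z] [CompactSpace Z] [MulAction G Z]
  [ContinuousConstSMul G Z] [MeasurableSpace Z] [BorelSpace Z]

theorem DF.exists_chart (X : GP G Z) {D : DF G Z} {O : Set Z} {u v : C(Z, ℝ)} (h : D.HM O u v) :
    ∃ V, Chart G V (cx u v) := by
  obtain ⟨V, w, r, k, hne, hV, hD, hi, hs, h0⟩ := exists_inj_C X h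
  have hφ := continuous_cx_C u v
  have hn := hV.nhds hφ hi hs
  have : Nonempty Z := ⟨hne.some⟩
  refine ⟨V, hV.op, hne, hφ, hi, hn, fun g ξ hξ hg => ?_⟩
  have hι : ∀ ζ ∈ V, Function.invFunOn (cx u v) V (cx u v ζ) = ζ := fun ζ hζ =>
    hi.leftInvOn_invFunOn hζ
  generalize Function.invFunOn (cx u v) V = ι at hι
  have hN : V ∩ (fun ζ => g • ζ) ⁻¹' O ∈ 𝓝 ξ := inter_mem (hV.op.mem_nhds hξ)
    ((h.op.preimage (continuous_const_smul g)).mem_nhds (hV.sub hg))
  have hN' : cx u v '' (V ∩ (fun ζ => g • ζ) ⁻¹' O) ∈ 𝓝 (cx u v ξ) := by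
    rw [← hn ξ hξ]
    exact image_mem_map hN
  obtain ⟨s, hs0, hsb⟩ :=
    Metric.mem_nhds_iff.1 (inter_mem hN' (isOpen_ball.mem_nhds (hV.map ξ hξ)))
  have hsub : V ∩ cx u v ⁻¹' ball (cx u v ξ) s ⊆ (fun ζ => g • ζ) ⁻¹' O := by
    rintro ζ ⟨h1, h2⟩
    obtain ⟨ζ', h3, h4⟩ := (hsb h2).1
    exact hi h3.1 h1 h4 ▸ h3.2
  have key : ∀ F : ℂ → ℂ, Differentiable ℂ F → InnerProductSpace.HarmonicOnNhd
      (fun y => (F (cx u v (g • ι y))).re) (ball (cx u v ξ) s) := by
    intro F hF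
    have h1 := harm_re_C h hF (h := ⟨fun ζ => (F (cx u v ζ)).re,
      Complex.continuous_re.comp (hF.continuous.comp hφ)⟩) fun _ => rfl
    exact harm_inv_C h hV hD hi hs h0 hι (fun y hy => (hsb hy).2) (harm_mono_C (h1.pull g) hsub)
  have e : ∀ z : ℂ, (-Complex.I * z).re = z.im := fun z => by simp
  have k2 := key (fun z => -Complex.I * z) (by fun_prop)
  have k4 := key (fun z => -Complex.I * z ^ 2) (by fun_prop)
  simp only [e] at k2 k4
  refine ⟨fun y => cx u v (g • ι y), ?_, ?_⟩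
  · exact (hol_or_anti (F := fun y => cx u v (g • ι y)) (key id differentiable_id) k2
      (key (fun z => z ^ 2) (by fun_prop)) k4).imp (fun a => a _ (mem_ball_self hs0))
        fun a => a _ (mem_ball_self hs0)
  · filter_upwards [hV.op.mem_nhds hξ] with ζ hζ
    rw [hι ζ hζ]

end Vale.Agent.P198
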