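import Vale.Agent.P198.C.Green
import Vale.Agent.P198.C.Pos
import Vale.Agent.P198.C.Top

/-! # P198 block C: fibres contain no continua
sph_conn X.sph gives the instances (path connected, locally path connected, infinite).
td_C: K₁ ∋ p a continuum in the fibre with a second point (0 < diam K₁).  If φ ξ ≠ w for ξ in the
component (open and connected, so path connected), σ = range of a path from ξ to p inside N;
δ = dist (φ ξ) w / 2, K₀ ∋ ξ from small_cont_C inside {δ ≤ dist (φ .) w}; ε > 0 below both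
diameters with cthickening ε σ ⊆ N (IsCompact.exists_cthickening_subset_open), τ = ε / (diam σ + 1);
c from D.l2 τ, ψ from logcut with η = c / 2, f = ψ ∘ φ, Cfg f K₀ K₁ ε 0 1; energy_C, integral_map.
exists_nc_C: only countably many w have a fibre with interior points
(Set.PairwiseDisjoint.countable_of_nonempty_interior or Pairwise.countable_of_isOpen_disjoint); with
ae_dens for μ = ((Γ u).restrict O).map φ and H.area pick p ∈ K with both properties at w = φ p;
td_C with N = O (the component is open).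
PrpC.nc: DensC.bound and td_C with N = W: φ = φ p on the component U of p in W, which is open;
closure U lies in the compact W ∩ φ ⁻¹' closedBall w s and is preconnected, so U is closed;
U = univ, φ is constant, against H.area. -/

namespace Vale.Agent.P198
open Set Metric Filter Topology MeasureTheory
open InnerProductSpace Laplacian
variable {G Z : Type} [Group G] [MetricSpace Z] [CompactSpace Z] [MulAction G Z]
  [ContinuousConstSMul G Z] [MeasurableSpace Z] [BorelSpace Z]
  {D : DF G Z} {O : Set Z} {u v : C(Z, ℝ)}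

theorem grad2_CTD {ψ : ℂ → ℝ} (hψ : ContDiff ℝ 2 ψ) : Continuous (grad2 ψ) := by
  have h := hψ.continuous_fderiv (by norm_num)
  exact ((h.clm_apply continuous_const).pow 2).add ((h.clm_apply continuous_const).pow 2)

theorem td_C (X : GP G Z) (H : D.HM O u v) {N : Set Z} (hN : IsOpen N) (hNO : N ⊆ O) {p : Z}
    (hp : p ∈ N) {A r₀ : ℝ} (hr : 0 < r₀) (hd : ∀ s > 0, s ≤ r₀ →
      (((D.Γ u).restrict N).map (cx u v)).real (ball (cx u v p) s) ≤ A * s ^ 2)
    (hn : ¬ NcC (cx u v) p) : ∀ ξ ∈ connectedComponentIn N p, cx u v ξ = cx u v p := by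
  intro ξ hξ
  by_contra hne
  haveI := (sph_conn X.sph).1
  haveI := (sph_conn X.sph).2.1
  haveI := (sph_conn X.sph).2.2
  haveI := D.fin u
  have hφ := continuous_cx_C u v
  unfold NcC at hn
  push Not at hn
  obtain ⟨K₁, c₁, m₁, f₁, hq⟩ := hn
  obtain ⟨q, hq1, hq2⟩ := not_subset.1 hq
  have d₁ : 0 < diam K₁ :=
    (dist_pos.2 hq2).trans_le (dist_le_diam_of_mem c₁.1.isBounded hq1 m₁)
  have hpc := (hN.connectedComponentIn (x := p)).isConnected_iff_isPathConnected.1
    (isConnected_connectedComponentIn_iff.2 hp)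
  obtain ⟨γ, hγ⟩ := hpc.joinedIn ξ hξ p (mem_connectedComponentIn hp)
  have sN : range γ ⊆ N := range_subset_iff.2 fun t => connectedComponentIn_subset N p (hγ t)
  obtain ⟨ε₀, e0, se⟩ := (isCompact_range γ.continuous).exists_cthickening_subset_open hN sN
  have hδ : 0 < dist (cx u v ξ) (cx u v p) / 2 := half_pos (dist_pos.2 hne)
  obtain ⟨K₀, c₀, m₀, s₀, d₀⟩ := small_cont_C (p := ξ)
    (N := {x | dist (cx u v ξ) (cx u v p) / 2 < dist (cx u v x) (cx u v p)})
    ((isOpen_lt continuous_const (hφ.dist continuous_const)).mem_nhds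
      (half_lt_self (dist_pos.2 hne)))
  set ε := min ε₀ (min (diam K₀) (diam K₁)) with hε
  have e1 : 0 < ε := lt_min e0 (lt_min d₀ d₁)
  have hd0 : 0 ≤ diam (range γ) := diam_nonneg
  obtain ⟨c, hc, hl⟩ := D.l2 (ε / (diam (range γ) + 1)) (by positivity)
  obtain ⟨ψ, p1, p2, p3, p4⟩ := logcut _ hr hd hδ (half_pos hc)
  set f : C(Z, ℝ) := ⟨fun x => ψ (cx u v x), p1.continuous.comp hφ⟩ with hf
  obtain ⟨mf, en⟩ := energy_C H p1 (h := f) (fun _ => rfl)
    (isClosed_cthickening (δ := ε) (E := range γ)).isCompact hN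
    ((cthickening_mono (min_le_left _ _) _).trans se) hNO
  have cfg : Cfg f K₀ K₁ ε 0 1 := by
    refine ⟨c₀, c₁, e1, (min_le_right _ _).trans (min_le_left _ _),
      (min_le_right _ _).trans (min_le_right _ _), zero_le_one, fun x hx => ?_, fun x hx => ?_⟩
    · refine (image_eq_zero_of_notMem_tsupport (f := ψ) fun h => ?_).le
      exact lt_asymm (mem_ball.1 (p3 h)) (s₀ hx)
    · have : f x = ψ (cx u v x) := rfl
      rw [this, f₁ x hx, p2]
  have h1 := hl f mf K₀ K₁ ε 0 1 cfg (range γ) (isPreconnected_range γ.continuous)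
    ⟨ξ, γ.source_mem_range, m₀⟩ ⟨p, γ.target_mem_range, m₁⟩ (by
      rw [div_mul_eq_mul_div, div_le_iff₀ (by positivity)]
      nlinarith)
  rw [integral_map hφ.measurable.aemeasurable (grad2_CTD p1).aestronglyMeasurable] at p4
  linarith

theorem exists_nc_C (X : GP G Z) (H : D.HM O u v) : ∃ p ∈ O, NcC (cx u v) p := by
  haveI := (sph_conn X.sph).2.1
  haveI := D.fin u
  obtain ⟨K, -, KO, hK⟩ := H.area
  have hS : {w : ℂ | (interior (cx u v ⁻¹' {w})).Nonempty}.Countable := by
    refine Set.PairwiseDisjoint.countable_of_nonempty_interior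
      (s := fun w => cx u v ⁻¹' {w}) (fun a _ b _ hab => ?_) fun w hw => hw
    exact Disjoint.preimage _ (disjoint_singleton.2 hab)
  obtain ⟨w, ⟨p, hp, rfl⟩, ⟨A, hA⟩, hw⟩ := Measure.exists_mem_of_measure_ne_zero_of_ae hK.ne'
    (ae_restrict_of_ae ((ae_dens (((D.Γ u).restrict O).map (cx u v))).and (hS.ae_notMem volume)))
  refine ⟨p, KO hp, by_contra fun hn => hw ⟨p, ?_⟩⟩
  exact interior_maximal (td_C X H H.op subset_rfl (KO hp) one_pos (fun s hs _ => hA s hs) hn)
    H.op.connectedComponentIn (mem_connectedComponentIn (KO hp))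

theorem PrpC.nc (X : GP G Z) (H : D.HM O u v) {W : Set Z} {w : ℂ} {r : ℝ} {h : ℂ → ℝ}
    (hW : PrpC (cx u v) O W w r) (hD : DensC (D.Γ u) (cx u v) W (fun _ => 1) w r h) :
    ∀ p ∈ W, NcC (cx u v) p := by
  intro p hp
  by_contra hn
  haveI := (sph_conn X.sph).1
  haveI := (sph_conn X.sph).2.1
  haveI := D.fin u
  obtain ⟨A, r₀, hr, hd⟩ := hD.bound (continuous_cx_C u v) (hW.map p hp)
  have h1 := td_C X H hW.op hW.sub hp hr hd hn
  have h2 : closure (connectedComponentIn W p) ⊆ W := by
    refine (closure_minimal (fun x hx => ?_) (hW.cpt _ (hW.map p hp)).isClosed).trans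
      inter_subset_left
    exact ⟨connectedComponentIn_subset W p hx, by
      rw [mem_preimage, h1 x hx]
      exact mem_closedBall.2 le_rfl⟩
  have h3 : IsClosed (connectedComponentIn W p) := closure_subset_iff_isClosed.1
    (isPreconnected_connectedComponentIn.closure.subset_connectedComponentIn
      (subset_closure (mem_connectedComponentIn hp)) h2)
  have h4 := IsClopen.eq_univ ⟨h3, hW.op.connectedComponentIn⟩ ⟨p, mem_connectedComponentIn hp⟩
  obtain ⟨K, -, -, hK⟩ := H.area
  refine hK.ne' (measure_mono_null (t := {cx u v p}) ?_ (measure_singleton _))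
  rintro _ ⟨x, -, rfl⟩
  exact h1 x (h4 ▸ mem_univ x)

end Vale.Agent.P198
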